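import Vale.Agent.P315.OT.Setup

/-!
P315, one-scale track, OT-6b: the expected number of leaves read.
-/

set_option autoImplicit false

namespace Vale.Agent.P315.OT

open Finset

namespace H167

/-- The area as a function of the jitters. -/
def ar (M w K : ℕ) (xi : ℕ → ℕ → ℕ) : ℕ → ℕ → ℕ → ℕ
  | 0, _, b => if 2 ≤ b then w + 1 else 0
  | j + 1, s, b => if b = 0 then 0 else
      ∑ i ∈ range M, (M * ar M w K xi j (s * M + i) (b - xi j (s * M + i)) +
        K * ar M w K xi j (s * M + i) (b + 1 - xi j (s * M + i)))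

theorem ar_zero_index (M w K : ℕ) (xi : ℕ → ℕ → ℕ) (j s : ℕ) : ar M w K xi j s 0 = 0 := by
  cases j with
  | zero => rfl
  | succ j => rw [ar, if_pos rfl]

theorem area_eq (I : Inst) (X : Sched) : ∀ j s b, I.area X j s b =
    ar I.M I.w (X.Λ * (I.w + 1) * (2 * I.w + 1)) X.xi j s b := by
  intro j
  induction j with
  | zero => intro s b; rfl
  | succ j ih =>
    intro s b
    rw [Inst.area, ar]
    split_ifs
    · rfl
    · apply Finset.sum_congr rfl
      intro i _
      rw [ih, ih]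

theorem ar_congr (M w K : ℕ) {xi xi' : ℕ → ℕ → ℕ} : ∀ j s b,
    (∀ j' < j, ∀ s' < (s + 1) * M ^ (j - j'), xi j' s' = xi' j' s') →
    ar M w K xi j s b = ar M w K xi' j s b := by
  intro j
  induction j with
  | zero => intro s b _; rfl
  | succ j ih =>
    intro s b h
    rw [ar, ar]
    split_ifs
    · rfl
    · apply Finset.sum_congr rfl
      intro i hi
      have hi' := Finset.mem_range.mp hi
      have h1 : s * M + i + 1 ≤ (s + 1) * M := by
        have : (s + 1) * M = s * M + M := by ring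
        omega
      have h0 : xi j (s * M + i) = xi' j (s * M + i) := by
        apply h j (Nat.lt_succ_self j)
        rw [show j + 1 - j = 1 by omega, pow_one]
        omega
      have h2 : ∀ b', ar M w K xi j (s * M + i) b' = ar M w K xi' j (s * M + i) b' := by
        intro b'
        apply ih
        intro j' hj' s' hs'
        apply h j' (by omega)
        refine lt_of_lt_of_le hs' ?_
        rw [show j + 1 - j' = (j - j') + 1 by omega, pow_succ']
        calc (s * M + i + 1) * M ^ (j - j') ≤ ((s + 1) * M) * M ^ (j - j') :=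
              Nat.mul_le_mul_right _ h1
          _ = (s + 1) * (M * M ^ (j - j')) := by ring
      rw [h0, h2, h2]

/-- Sum of a function of the residue. -/
theorem sum_mod (g : ℕ → ℝ) (m k : ℕ) :
    ∑ x ∈ range (m * k), g (x % m) = k * ∑ y ∈ range m, g y := by
  induction k with
  | zero => simp
  | succ k ih =>
    rw [Nat.mul_succ, Finset.sum_range_add, ih]
    have : ∀ x ∈ range m, g ((m * k + x) % m) = g x := by
      intro x hx
      rw [Nat.mul_add_mod, Nat.mod_eq_of_lt (Finset.mem_range.mp hx)]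
    rw [Finset.sum_congr rfl this]
    push_cast
    ring

/-- Average of a function of the residue of a uniform point of `Fin E`. -/
theorem av_mod {E m : ℕ} (hE : 0 < E) (hm : m ∣ E) (g : ℕ → ℝ) :
    H731.av (fun x : Fin E => g ((x : ℕ) % m)) = (∑ y ∈ range m, g y) / m := by
  obtain ⟨k, rfl⟩ := hm
  have hm0 : (m : ℝ) ≠ 0 := by
    rintro h
    have : m = 0 := by exact_mod_cast h
    subst this; simp at hE
  have hk0 : (k : ℝ) ≠ 0 := by
    rintro h
    have : k = 0 := by exact_mod_cast h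
    subst this; simp at hE
  unfold H731.av
  rw [Fintype.card_fin, Fin.sum_univ_eq_sum_range (fun x => g (x % m)) (m * k), sum_mod]
  push_cast
  field_simp

/-- Hoeffding's lemma for a uniform integer. -/
theorem hoeff (lam : ℝ) (J : ℕ) :
    (∑ y ∈ range (J + 1), Real.exp (-(lam * y))) / ((J + 1 : ℕ) : ℝ) ≤
      Real.exp (-(lam * J / 2) + lam ^ 2 * J ^ 2 / 8) := by
  have hpos : (0 : ℝ) < ((J + 1 : ℕ) : ℝ) := by positivity
  rw [div_le_iff₀ hpos]
  have hrefl : ∑ y ∈ range (J + 1), Real.exp (-(lam * ((J - y : ℕ) : ℝ))) =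
      ∑ y ∈ range (J + 1), Real.exp (-(lam * y)) := by
    have := Finset.sum_range_reflect (fun y => Real.exp (-(lam * (y : ℝ)))) (J + 1)
    simpa using this
  have hpair : ∀ y ∈ range (J + 1), Real.exp (-(lam * y)) + Real.exp (-(lam * ((J - y : ℕ) : ℝ))) ≤
      2 * Real.exp (-(lam * J / 2) + lam ^ 2 * J ^ 2 / 8) := by
    intro y hy
    have hy' : y ≤ J := by have := Finset.mem_range.mp hy; omega
    rw [Nat.cast_sub hy']
    have hyr : (y : ℝ) ≤ J := by exact_mod_cast hy'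
    have hy0 : (0 : ℝ) ≤ y := Nat.cast_nonneg y
    set t : ℝ := lam * (J / 2 - y) with ht
    have e1 : Real.exp (-(lam * y)) = Real.exp (-(lam * J / 2)) * Real.exp t := by
      rw [← Real.exp_add]; congr 1; rw [ht]; ring
    have e2 : Real.exp (-(lam * ((J : ℝ) - y))) = Real.exp (-(lam * J / 2)) * Real.exp (-t) := by
      rw [← Real.exp_add]; congr 1; rw [ht]; ring
    rw [e1, e2]
    have hc : Real.exp t + Real.exp (-t) = 2 * Real.cosh t := by rw [Real.cosh_eq]; ring
    have h3 : Real.cosh t ≤ Real.exp (t ^ 2 / 2) := Real.cosh_le_exp_half_sq t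
    have h4 : t ^ 2 / 2 ≤ lam ^ 2 * J ^ 2 / 8 := by
      have : ((J : ℝ) / 2 - y) ^ 2 ≤ (J : ℝ) ^ 2 / 4 := by nlinarith
      rw [ht, mul_pow]
      nlinarith [sq_nonneg lam, mul_le_mul_of_nonneg_left this (sq_nonneg lam)]
    calc Real.exp (-(lam * J / 2)) * Real.exp t + Real.exp (-(lam * J / 2)) * Real.exp (-t)
        = Real.exp (-(lam * J / 2)) * (2 * Real.cosh t) := by rw [← hc]; ring
      _ ≤ Real.exp (-(lam * J / 2)) * (2 * Real.exp (lam ^ 2 * J ^ 2 / 8)) := by
          apply mul_le_mul_of_nonneg_left _ (Real.exp_pos _).le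
          have := Real.exp_le_exp.mpr h4
          linarith
      _ = 2 * Real.exp (-(lam * J / 2) + lam ^ 2 * J ^ 2 / 8) := by rw [Real.exp_add]; ring
  have hsum := Finset.sum_le_sum hpair
  rw [Finset.sum_add_distrib, hrefl, sum_const, card_range, nsmul_eq_mul] at hsum
  linarith

/-- The jitters given by the seed. -/
def xo (Q : Prm) (Cd : Code) {R E : ℕ} (ω : Seed R E) : ℕ → ℕ → ℕ :=
  fun j s => sd ω (Cd.cx j s) % (Q.J + 1)

/-- One level of the recursion: the own jitter is averaged. -/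
theorem av_step {Q : Prm} {Cd : Code} {R E Pb : ℕ} (hE : 0 < E) (dJ : (Q.J + 1) ∣ E)
    (hCd : Cd.Ok Pb R) (b1 : Q.n < Pb) (b2 : Q.M ^ Q.n < Pb) (hM : 2 ≤ Q.M) (K : ℕ) {lam B : ℝ}
    (hB : 0 ≤ B) {j s' : ℕ} (hj : j < Q.n) (hs : s' < Q.M ^ (Q.n - j))
    (ih : ∀ b : ℕ, H731.av (fun ω : Seed R E => (ar Q.M Q.w K (xo Q Cd ω) j s' b : ℝ)) ≤
      B * Real.exp (lam * b)) (b : ℕ) :
    H731.av (fun ω : Seed R E => (ar Q.M Q.w K (xo Q Cd ω) j s' (b - xo Q Cd ω j s') : ℝ)) ≤
      B * Real.exp (lam * b) * Real.exp (-(lam * Q.J / 2) + lam ^ 2 * Q.J ^ 2 / 8) := by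
  classical
  have : Nonempty (Fin E) := ⟨⟨0, hE⟩⟩
  have hM1 : 1 ≤ Q.M := by omega
  have hs' : s' < Pb := lt_of_lt_of_le hs ((Nat.pow_le_pow_right hM1 (by omega)).trans b2.le)
  have hjP : j < Pb := by omega
  have hlt : Cd.cx j s' < R := hCd.cx_lt j s' hjP hs'
  set i₀ : Fin R := ⟨Cd.cx j s', hlt⟩ with hi₀
  have hres := H731.av_resample (A := fun _ : Fin R => Fin E) i₀
    (fun ω : Seed R E => (ar Q.M Q.w K (xo Q Cd ω) j s' (b - xo Q Cd ω j s') : ℝ))
  rw [← hres]
  have hown : ∀ (c : Seed R E) (x : Fin E), xo Q Cd (Function.update c i₀ x) j s' =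
      (x : ℕ) % (Q.J + 1) := by
    intro c x
    unfold xo sd
    rw [dif_pos hlt, ← hi₀, Function.update_self]
  have hoth : ∀ (c : Seed R E) (x : Fin E) (b' : ℕ),
      ar Q.M Q.w K (xo Q Cd (Function.update c i₀ x)) j s' b' =
        ar Q.M Q.w K (xo Q Cd c) j s' b' := by
    intro c x b'
    apply ar_congr
    intro j' hj' t ht
    have htP : t < Pb := by
      refine lt_of_lt_of_le ht (le_trans ?_ b2.le)
      calc (s' + 1) * Q.M ^ (j - j') ≤ Q.M ^ (Q.n - j) * Q.M ^ (j - j') :=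
            Nat.mul_le_mul_right _ hs
        _ = Q.M ^ (Q.n - j + (j - j')) := by rw [pow_add]
        _ ≤ Q.M ^ Q.n := Nat.pow_le_pow_right hM1 (by omega)
    have hlt' : Cd.cx j' t < R := hCd.cx_lt j' t (by omega) htP
    have hne : (⟨Cd.cx j' t, hlt'⟩ : Fin R) ≠ i₀ := by
      intro h
      have h' : Cd.cx j' t = Cd.cx j s' := by
        have := congrArg Fin.val h
        simpa [hi₀] using this
      have := (hCd.cx_inj j' t j s' (by omega) htP hjP hs' h').1
      omega
    unfold xo sd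
    rw [dif_pos hlt', dif_pos hlt', Function.update_of_ne hne]
  have e1 : (fun c : Seed R E => H731.av (fun x : Fin E =>
      (ar Q.M Q.w K (xo Q Cd (Function.update c i₀ x)) j s'
        (b - xo Q Cd (Function.update c i₀ x) j s') : ℝ))) =
      fun c => H731.av (fun x : Fin E =>
        (ar Q.M Q.w K (xo Q Cd c) j s' (b - (x : ℕ) % (Q.J + 1)) : ℝ)) := by
    funext c
    apply H731.av_congr
    intro x
    rw [hown, hoth]
  rw [e1, H731.av_comm (fun (c : Seed R E) (x : Fin E) =>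
    (ar Q.M Q.w K (xo Q Cd c) j s' (b - (x : ℕ) % (Q.J + 1)) : ℝ))]
  have e2 : ∀ x : Fin E, H731.av (fun c : Seed R E =>
      (ar Q.M Q.w K (xo Q Cd c) j s' (b - (x : ℕ) % (Q.J + 1)) : ℝ)) ≤
      B * Real.exp (lam * b) * Real.exp (-(lam * (((x : ℕ) % (Q.J + 1) : ℕ) : ℝ))) := by
    intro x
    rcases Nat.lt_or_ge b ((x : ℕ) % (Q.J + 1)) with h | h
    · rw [show b - (x : ℕ) % (Q.J + 1) = 0 by omega]
      simp only [ar_zero_index, Nat.cast_zero]
      rw [H731.av_zero]
      positivity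
    · refine (ih _).trans (le_of_eq ?_)
      rw [Nat.cast_sub h, mul_assoc, ← Real.exp_add]
      congr 2
      ring
  refine (H731.av_mono e2).trans ?_
  rw [H731.av_const_mul, av_mod hE dJ (fun y => Real.exp (-(lam * (y : ℝ))))]
  exact mul_le_mul_of_nonneg_left (hoeff lam Q.J) (by positivity)

/-- The expected area. -/
theorem av_ar_le {Q : Prm} {Cd : Code} {R E Pb : ℕ} (hE : 0 < E) (dJ : (Q.J + 1) ∣ E)
    (hCd : Cd.Ok Pb R) (b1 : Q.n < Pb) (b2 : Q.M ^ Q.n < Pb) (hM : 2 ≤ Q.M) (K : ℕ) {lam : ℝ}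
    (hlam : 0 ≤ lam) : ∀ j ≤ Q.n, ∀ s < Q.M ^ (Q.n - j), ∀ b : ℕ,
    H731.av (fun ω : Seed R E => (ar Q.M Q.w K (xo Q Cd ω) j s b : ℝ)) ≤
      ((Q.w + 1 : ℕ) * (Q.M : ℝ) ^ (2 * j) * Real.exp (j * (-(lam * Q.J / 2) +
        lam ^ 2 * Q.J ^ 2 / 8 + K / Q.M * Real.exp lam))) * Real.exp (lam * b) := by
  classical
  have : Nonempty (Fin E) := ⟨⟨0, hE⟩⟩
  have hM0 : (0 : ℝ) < Q.M := by
    have : 0 < Q.M := by omega
    exact_mod_cast this
  intro j
  induction j with
  | zero =>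
    intro _ s _ b
    apply H731.av_le
    intro ω
    rw [ar]
    have h1 : (1 : ℝ) ≤ Real.exp (lam * b) := Real.one_le_exp (by positivity)
    split_ifs
    · simp only [mul_zero, pow_zero, mul_one, Nat.cast_zero, zero_mul, Real.exp_zero]
      have : (0 : ℝ) ≤ ((Q.w + 1 : ℕ) : ℝ) := Nat.cast_nonneg _
      nlinarith
    · simp only [Nat.cast_zero]
      positivity
  | succ j ih =>
    intro hj s hs b
    set κ : ℝ := -(lam * Q.J / 2) + lam ^ 2 * Q.J ^ 2 / 8 + K / Q.M * Real.exp lam with hκ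
    set B : ℝ := (Q.w + 1 : ℕ) * (Q.M : ℝ) ^ (2 * j) * Real.exp (j * κ) with hBdef
    have hB : 0 ≤ B := by positivity
    set H : ℝ := Real.exp (-(lam * Q.J / 2) + lam ^ 2 * Q.J ^ 2 / 8) with hH
    have hchild : ∀ i ∈ range Q.M, s * Q.M + i < Q.M ^ (Q.n - j) := by
      intro i hi
      have hi' := Finset.mem_range.mp hi
      have h1 : (s + 1) * Q.M ≤ Q.M ^ (Q.n - (j + 1)) * Q.M := Nat.mul_le_mul_right _ hs
      have h2 : Q.M ^ (Q.n - (j + 1)) * Q.M = Q.M ^ (Q.n - j) := by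
        rw [← pow_succ]; congr 1; omega
      have h3 : (s + 1) * Q.M = s * Q.M + Q.M := by ring
      omega
    have hst : ∀ i ∈ range Q.M, ∀ b' : ℕ,
        H731.av (fun ω : Seed R E => (ar Q.M Q.w K (xo Q Cd ω) j (s * Q.M + i)
          (b' - xo Q Cd ω j (s * Q.M + i)) : ℝ)) ≤ B * Real.exp (lam * b') * H := by
      intro i hi b'
      exact av_step hE dJ hCd b1 b2 hM K hB (by omega) (hchild i hi)
        (ih (by omega) _ (hchild i hi)) b'
    rcases Nat.eq_zero_or_pos b with rfl | hb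
    · simp only [ar_zero_index, Nat.cast_zero]
      rw [H731.av_zero]
      positivity
    · have e1 : (fun ω : Seed R E => (ar Q.M Q.w K (xo Q Cd ω) (j + 1) s b : ℝ)) =
          fun ω => ∑ i ∈ range Q.M, ((Q.M : ℝ) * (ar Q.M Q.w K (xo Q Cd ω) j (s * Q.M + i)
            (b - xo Q Cd ω j (s * Q.M + i)) : ℝ) +
            (K : ℝ) * (ar Q.M Q.w K (xo Q Cd ω) j (s * Q.M + i)
            (b + 1 - xo Q Cd ω j (s * Q.M + i)) : ℝ)) := by
        funext ω
        rw [ar, if_neg (by omega)]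
        push_cast
        rfl
      rw [e1, H731.av_sum]
      have e2 : ∀ i ∈ range Q.M, H731.av (fun ω : Seed R E =>
          ((Q.M : ℝ) * (ar Q.M Q.w K (xo Q Cd ω) j (s * Q.M + i)
            (b - xo Q Cd ω j (s * Q.M + i)) : ℝ) +
            (K : ℝ) * (ar Q.M Q.w K (xo Q Cd ω) j (s * Q.M + i)
            (b + 1 - xo Q Cd ω j (s * Q.M + i)) : ℝ))) ≤
          B * Real.exp (lam * b) * H * (Q.M + K * Real.exp lam) := by
        intro i hi
        rw [H731.av_add, H731.av_const_mul, H731.av_const_mul]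
        have h1 := hst i hi b
        have h2 := hst i hi (b + 1)
        have h3 : Real.exp (lam * ((b + 1 : ℕ) : ℝ)) = Real.exp (lam * b) * Real.exp lam := by
          rw [← Real.exp_add]; congr 1; push_cast; ring
        rw [h3] at h2
        have h4 := mul_le_mul_of_nonneg_left h1 hM0.le
        have h5 := mul_le_mul_of_nonneg_left h2 (Nat.cast_nonneg (α := ℝ) K)
        calc _ ≤ (Q.M : ℝ) * (B * Real.exp (lam * b) * H) +
              K * (B * (Real.exp (lam * b) * Real.exp lam) * H) := add_le_add h4 h5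
          _ = _ := by ring
      refine (Finset.sum_le_sum e2).trans ?_
      rw [sum_const, card_range, nsmul_eq_mul]
      have h6 : (Q.M : ℝ) + K * Real.exp lam ≤ Q.M * Real.exp (K / Q.M * Real.exp lam) := by
        have h7 : K / Q.M * Real.exp lam + 1 ≤ Real.exp (K / Q.M * Real.exp lam) :=
          Real.add_one_le_exp _
        calc (Q.M : ℝ) + K * Real.exp lam = Q.M * (K / Q.M * Real.exp lam + 1) := by
              field_simp; ring
          _ ≤ _ := mul_le_mul_of_nonneg_left h7 hM0.le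
      calc (Q.M : ℝ) * (B * Real.exp (lam * b) * H * (Q.M + K * Real.exp lam))
          ≤ (Q.M : ℝ) * (B * Real.exp (lam * b) * H *
              (Q.M * Real.exp (K / Q.M * Real.exp lam))) := by
            apply mul_le_mul_of_nonneg_left _ hM0.le
            exact mul_le_mul_of_nonneg_left h6 (by positivity)
        _ = (Q.w + 1 : ℕ) * (Q.M : ℝ) ^ (2 * (j + 1)) *
              (Real.exp (j * κ) * (H * Real.exp (K / Q.M * Real.exp lam))) *
              Real.exp (lam * b) := by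
            rw [hBdef]; ring
        _ = (Q.w + 1 : ℕ) * (Q.M : ℝ) ^ (2 * (j + 1)) * Real.exp ((j + 1 : ℕ) * κ) *
              Real.exp (lam * b) := by
            congr 2
            rw [hH, ← Real.exp_add, ← Real.exp_add]
            congr 1
            rw [hκ]; push_cast; ring

/-- The schedule read from a seed is admissible. -/
theorem sch_ok {Q : Prm} {Cd : Code} {P : Picker} {W R : ℕ} {Lg e3 : ℝ}
    (hP : P.Ok Q.M W R Lg e3) (ω : ℕ → ℕ) : (Q.sch Cd P ω).Ok Q.M Q.J where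
  xi_le := fun _ _ => Nat.lt_succ_iff.mp (Nat.mod_lt _ (Nat.succ_pos _))
  chain := fun _ _ _ _ _ _ _ huv =>
    hP.chain _ _ _ _ _ _ _ (Nat.mul_le_mul_right _ huv) (Nat.mod_lt _ hP.T_pos)

end H167

/-- **OT-6b**: the expected number of leaves read. -/
theorem stmtArea : StmtArea := by
  intro Q Cd P hid vis Y R E Pb Lg e3 hS lam hlam
  have hX : ∀ ω : Seed R E, (Q.sch Cd P (sd ω)).Ok (Q.inst hid vis).M Q.J :=
    fun ω => H167.sch_ok hS.hP _
  have hI : (Q.inst hid vis).Ok := ⟨hS.hQ.M_two, hS.hle⟩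
  set K : ℕ := (Q.N + 1) * (Q.w + 1) * (2 * Q.w + 1) with hK
  have h1 : ∀ ω : Seed R E,
      (((Q.inst hid vis).S (Q.sch Cd P (sd ω)) Q.n 0 0 Y Q.N).card : ℝ) ≤
        ((2 * Q.w + 1 : ℕ) : ℝ) * (H167.ar Q.M Q.w K (H167.xo Q Cd ω) Q.n 0 Q.N : ℝ) := by
    intro ω
    have h := Inst.card_S_le hI (hX ω) (j := Q.n) (s := 0) (u := 0) (v := Y) (b := Q.N)
      (Nat.zero_le _) (by have := hS.hY; simpa [Prm.inst] using this)
    rw [H167.area_eq] at h
    exact_mod_cast h
  refine (H731.av_mono h1).trans ?_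
  rw [H731.av_const_mul]
  have h2 := H167.av_ar_le (Q := Q) (Cd := Cd) (R := R) hS.hE hS.dJ hS.hCd hS.b1 hS.b2
    hS.hQ.M_two K hlam Q.n le_rfl 0 (by simp) Q.N
  refine (mul_le_mul_of_nonneg_left h2 (Nat.cast_nonneg _)).trans (le_of_eq ?_)
  rw [mul_assoc _ _ (Real.exp (lam * Q.N)), ← Real.exp_add]
  push_cast
  rw [hK]
  push_cast
  have e : (Q.n : ℝ) * (-(lam * Q.J / 2) + lam ^ 2 * Q.J ^ 2 / 8 +
      (Q.N + 1) * (Q.w + 1) * (2 * Q.w + 1) / Q.M * Real.exp lam) + lam * Q.N =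
      lam * Q.N + Q.n * (-(lam * Q.J / 2) + lam ^ 2 * Q.J ^ 2 / 8 +
      (Q.N + 1) * (Q.w + 1) * (2 * Q.w + 1) / Q.M * Real.exp lam) := by ring
  rw [e]
  ring

end Vale.Agent.P315.OT
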