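import Vale.Agent.P315.OT.Num
import Vale.Agent.P315.H527.ParPT
import Vale.Agent.P315.H155.Auto

/-!
P315, one-scale track, OT-9: the parameter functions of `OT/Num.lean` are computable in polynomial
time from (functions giving) `N` and `n`; the polylogarithmic ones are polynomially bounded in
value.
-/

set_option autoImplicit false

namespace Vale.Agent.P315.OT.Num

open Vale.Agent.Lib.PolyTime Vale.Agent.P315.H738 Vale.Agent.P315.H527

variable {A : Set Word} {α : Type*} [Enc α] {N n : α → ℕ}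

/-! ### `lg`, `ll`, `bra`, `lvl` -/

@[fun_prop]
theorem PT_lg (hN : PT A N) : PT A (fun a => lg (N a)) :=
  PT_log (le_refl 2) (PT.add hN (PT.const 2))

theorem PBd_lg' (hN : PT A N) : PBd (fun a => lg (N a)) :=
  PBd_log 2 (PT.add hN (PT.const 2))

@[fun_prop]
theorem PBd_lg (hN : PT ∅ N) : PBd (fun a => lg (N a)) := PBd_lg' hN

@[fun_prop]
theorem PT_ll (hN : PT A N) : PT A (fun a => ll (N a)) :=
  PT.add (PT_log (le_refl 2) (PT_lg hN)) (PT.const 1)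

theorem PBd_ll' (hN : PT A N) : PBd (fun a => ll (N a)) :=
  (PBd_lg' hN).mono fun _ => ll_le_lg _

@[fun_prop]
theorem PBd_ll (hN : PT ∅ N) : PBd (fun a => ll (N a)) := PBd_ll' hN

/-- `2 ^ (c ll N)` is polylogarithmic. -/
theorem PBd_two_pow_ll' (hN : PT A N) (c : ℕ) : PBd (fun a => 2 ^ (c * ll (N a))) := by
  have h : PBd (fun a => (2 * lg (N a)) ^ c) := by
    induction c with
    | zero => simpa using PBd.const 1
    | succ c ih => simpa [pow_succ] using ih.mul ((PBd.const 2).mul (PBd_lg' hN))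
  refine h.mono fun a => ?_
  rw [mul_comm, pow_mul]
  exact Nat.pow_le_pow_left (pow_ll_le _) c

@[fun_prop]
theorem PBd_two_pow_ll (hN : PT ∅ N) (c : ℕ) : PBd (fun a => 2 ^ (c * ll (N a))) :=
  PBd_two_pow_ll' hN c

@[fun_prop]
theorem PT_two_pow_ll (hN : PT A N) (c : ℕ) : PT A (fun a => 2 ^ (c * ll (N a))) :=
  PT.pow (PT.const 2) (PT.mul (PT.const c) (PT_ll hN)) ((PBd.const c).mul (PBd_ll' hN))

@[fun_prop]
theorem PT_bra (c : ℕ) (hN : PT A N) : PT A (fun a => bra c (N a)) := PT_two_pow_ll hN c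

theorem PBd_bra' (c : ℕ) (hN : PT A N) : PBd (fun a => bra c (N a)) := PBd_two_pow_ll' hN c

@[fun_prop]
theorem PBd_bra (c : ℕ) (hN : PT ∅ N) : PBd (fun a => bra c (N a)) := PBd_two_pow_ll' hN c

@[fun_prop]
theorem PT_lvl (g c : ℕ) (hN : PT A N) : PT A (fun a => lvl g c (N a)) :=
  PT.div (PT_lg hN) (PT.mul (PT.const g) (PT.mul (PT.const c) (PT_ll hN)))

theorem PBd_lvl' (g c : ℕ) (hN : PT A N) : PBd (fun a => lvl g c (N a)) :=
  (PBd_lg' hN).mono fun _ => lvl_le _ _ _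

@[fun_prop]
theorem PBd_lvl (g c : ℕ) (hN : PT ∅ N) : PBd (fun a => lvl g c (N a)) := PBd_lvl' g c hN

/-! ### The polylogarithmic parameters -/

@[fun_prop]
theorem PT_pA (e : ℕ) (hN : PT A N) : PT A (fun a => pA e (N a)) :=
  PT.mul (PT.const (256 * e)) (PT_ll hN)

theorem PBd_pA' (e : ℕ) (hN : PT A N) : PBd (fun a => pA e (N a)) :=
  (PBd.const (256 * e)).mul (PBd_ll' hN)

@[fun_prop]
theorem PBd_pA (e : ℕ) (hN : PT ∅ N) : PBd (fun a => pA e (N a)) := PBd_pA' e hN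

@[fun_prop]
theorem PT_pm (e : ℕ) (hN : PT A N) : PT A (fun a => pm e (N a)) :=
  PT.mul (PT_pA e hN) (PT_lg hN)

theorem PBd_pm' (e : ℕ) (hN : PT A N) : PBd (fun a => pm e (N a)) :=
  (PBd_pA' e hN).mul (PBd_lg' hN)

@[fun_prop]
theorem PBd_pm (e : ℕ) (hN : PT ∅ N) : PBd (fun a => pm e (N a)) := PBd_pm' e hN

@[fun_prop]
theorem PT_pw (e : ℕ) (hN : PT A N) : PT A (fun a => pw e (N a)) :=
  PT.mul (PT.const (16 * e + 1)) (PT_pm e hN)

theorem PBd_pw' (e : ℕ) (hN : PT A N) : PBd (fun a => pw e (N a)) :=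
  (PBd.const (16 * e + 1)).mul (PBd_pm' e hN)

@[fun_prop]
theorem PBd_pw (e : ℕ) (hN : PT ∅ N) : PBd (fun a => pw e (N a)) := PBd_pw' e hN

theorem pJ1_le' (e N : ℕ) : pJ1 e N ≤ 32768 * e ^ 2 * ll N + 2 := by
  rcases Nat.eq_zero_or_pos e with h | h
  · subst h
    simp [pJ1]
  · exact (pJ1_le h).trans (Nat.le_add_right _ _)

theorem PBd_pJ1' (e : ℕ) (hN : PT A N) : PBd (fun a => pJ1 e (N a)) :=
  (((PBd.const (32768 * e ^ 2)).mul (PBd_ll' hN)).add (PBd.const 2)).mono fun _ => pJ1_le' _ _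

@[fun_prop]
theorem PBd_pJ1 (e : ℕ) (hN : PT ∅ N) : PBd (fun a => pJ1 e (N a)) := PBd_pJ1' e hN

@[fun_prop]
theorem PT_pJ1 (e : ℕ) (hN : PT A N) : PT A (fun a => pJ1 e (N a)) := by
  have h1 : PT A (fun a => 16384 * e ^ 2 * ll (N a)) := PT.mul (PT.const (16384 * e ^ 2)) (PT_ll hN)
  exact PT.pow (PT.const 2) (PT.add (PT_log (le_refl 2) h1) (PT.const 1))
    ((PBd_log 2 h1).add (PBd.const 1))

@[fun_prop]
theorem PT_pJ (e : ℕ) (hN : PT A N) : PT A (fun a => pJ e (N a)) :=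
  PT.sub (PT_pJ1 e hN) (PT.const 1)

theorem PBd_pJ' (e : ℕ) (hN : PT A N) : PBd (fun a => pJ e (N a)) :=
  (PBd_pJ1' e hN).mono fun _ => Nat.sub_le _ _

@[fun_prop]
theorem PBd_pJ (e : ℕ) (hN : PT ∅ N) : PBd (fun a => pJ e (N a)) := PBd_pJ' e hN

/-! ### Root index and number of rounds -/

@[fun_prop]
theorem PT_pN (e : ℕ) (hN : PT A N) (hn : PT A n) : PT A (fun a => pN e (N a) (n a)) :=
  PT.sub (PT.div (PT.mul (PT_pJ e hN) hn) (PT.const 2)) (PT.div hn (PT.const (64 * e)))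

theorem PBd_pN' (e : ℕ) (hN : PT A N) (hnb : PBd n) : PBd (fun a => pN e (N a) (n a)) :=
  ((PBd_pJ' e hN).mul hnb).mono fun _ => pN_le _ _ _

@[fun_prop]
theorem PBd_pN (e : ℕ) (hN : PT ∅ N) (hnb : PBd n) : PBd (fun a => pN e (N a) (n a)) :=
  PBd_pN' e hN hnb

@[fun_prop]
theorem PT_pRd (e : ℕ) (hN : PT A N) (hn : PT A n) : PT A (fun a => pRd e (N a) (n a)) :=
  PT.add (PT.add (PT_pN e hN hn) (PT.mul (PT_pJ e hN) hn)) (PT.const 4)

theorem PBd_pRd' (e : ℕ) (hN : PT A N) (hnb : PBd n) : PBd (fun a => pRd e (N a) (n a)) :=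
  ((PBd_pN' e hN hnb).add ((PBd_pJ' e hN).mul hnb)).add (PBd.const 4)

@[fun_prop]
theorem PBd_pRd (e : ℕ) (hN : PT ∅ N) (hnb : PBd n) : PBd (fun a => pRd e (N a) (n a)) :=
  PBd_pRd' e hN hnb

/-! ### The large parameters -/

@[fun_prop]
theorem PT_pK (hN : PT A N) (hn : PT A n) (hnb : PBd n) : PT A (fun a => pK (N a) (n a)) :=
  PT.pow (PT_bra 4 hN) hn hnb

@[fun_prop]
theorem PT_pg (e : ℕ) (hN : PT A N) (hn : PT A n) (hnb : PBd n) :
    PT A (fun a => pg e (N a) (n a)) :=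
  PT.add (PT.div hN (PT.mul (PT_pK hN hn hnb) (PT_pm e hN))) (PT.const 1)

@[fun_prop]
theorem PT_pE (e : ℕ) (hN : PT A N) (hn : PT A n) : PT A (fun a => pE e (N a) (n a)) :=
  PT.div hn (PT.mul (PT.const (cE e)) (PT.powConst (PT_ll hN) 2))

theorem PBd_pE' (e : ℕ) (hnb : PBd n) : PBd (fun a => pE e (N a) (n a)) :=
  hnb.mono fun _ => Nat.div_le_self _ _

@[fun_prop]
theorem PBd_pE (e : ℕ) (hnb : PBd n) : PBd (fun a => pE e (N a) (n a)) := PBd_pE' e hnb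

@[fun_prop]
theorem PT_pQ (e : ℕ) (hN : PT A N) (hn : PT A n) (hnb : PBd n) :
    PT A (fun a => pQ e (N a) (n a)) :=
  PT.add (PT.div (PT.mul (PT.const 20) (PT.mul (PT.mul
    (PT.add (PT.mul (PT.const 2) (PT_pw e hN)) (PT.const 1)) (PT.add (PT_pw e hN) (PT.const 1)))
    (PT.powConst (PT_pK hN hn hnb) 2))) (PT.pow (PT.const 2) (PT_pE e hN hn) (PBd_pE' e hnb)))
    (PT.const 1)

@[fun_prop]
theorem PT_pP (e : ℕ) (hN : PT A N) (hn : PT A n) (hnb : PBd n) :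
    PT A (fun a => pP e (N a) (n a)) :=
  PT.add (PT.add (PT.add (PT.mul (PT.add (PT_pm e hN) (PT.const 2)) (PT_pK hN hn hnb))
    (PT.mul (PT.const 2) (PT_pRd e hN hn))) hn) (PT.const 4)

end Vale.Agent.P315.OT.Num
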